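import Vale.Agent.P154.Defs
import Vale.Agent.P154.KS
import Vale.Agent.P154.Reduce
import Vale.Agent.P154.CertQ3
import Vale.Agent.P154.CertQ4

namespace Vale.Agent.Results.P154.Ferro

open Vale.Agent.P154 Filter Topology

private theorem not_both' {a : ℕ → ℝ} (h : Reconstruction a) (h' : Nonreconstruction a) : False := by
  obtain ⟨L, hL, hT⟩ := h
  exact hL.ne' (tendsto_nhds_unique hT h')

private theorem main {q : ℕ} (hq : 2 ≤ q) (C : Cert q) (lam : ℝ) (h0 : 0 ≤ lam) (h1 : lam ≤ 1) :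
    (∀ d : ℕ, 2 ≤ d →
      (Reconstruction (aReg q d lam) ↔ 1 < (d : ℝ) * lam ^ 2) ∧
      (Nonreconstruction (aReg q d lam) ↔ (d : ℝ) * lam ^ 2 ≤ 1)) ∧
    (∀ d : ℝ, 0 < d →
      (Reconstruction (aGW q d lam) ↔ 1 < d * lam ^ 2) ∧
      (Nonreconstruction (aGW q d lam) ↔ d * lam ^ 2 ≤ 1)) := by
  have hq' : (2 : ℝ) ≤ q := by exact_mod_cast hq
  have hl : -1 / ((q : ℝ) - 1) ≤ lam := by
    refine le_trans ?_ h0
    apply div_nonpos_of_nonpos_of_nonneg
    · norm_num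
    · linarith
  refine ⟨fun d hd => ⟨⟨fun h => ?_, fun h => KS_reg hq hl h1 h⟩,
      ⟨fun h => ?_, fun h => nonrec_reg hq C h0 h1 hd h⟩⟩,
    fun d hd => ⟨⟨fun h => ?_, fun h => KS_gw hq hl h1 hd h⟩,
      ⟨fun h => ?_, fun h => nonrec_gw hq C h0 h1 hd h⟩⟩⟩
  · by_contra hc
    exact not_both' h (nonrec_reg hq C h0 h1 hd (not_lt.mp hc))
  · by_contra hc
    exact not_both' (KS_reg hq hl h1 (not_le.mp hc)) h
  · by_contra hc
    exact not_both' h (nonrec_gw hq C h0 h1 hd (not_lt.mp hc))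
  · by_contra hc
    exact not_both' (KS_gw hq hl h1 hd (not_le.mp hc)) h

/-- For `q = 3, 4` states and every `0 ≤ lam ≤ 1`, on the `d`-ary tree (all integers `d ≥ 2`) and
on the Galton-Watson tree with Poisson(`d`) offspring (all real `d > 0`), reconstruction holds if
and only if `d lam^2 > 1` and nonreconstruction holds if and only if `d lam^2 ≤ 1`. -/
theorem result :
    ∀ q : ℕ, q = 3 ∨ q = 4 → ∀ lam : ℝ, 0 ≤ lam → lam ≤ 1 →
      (∀ d : ℕ, 2 ≤ d →
        (Reconstruction (aReg q d lam) ↔ 1 < (d : ℝ) * lam ^ 2) ∧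
        (Nonreconstruction (aReg q d lam) ↔ (d : ℝ) * lam ^ 2 ≤ 1)) ∧
      (∀ d : ℝ, 0 < d →
        (Reconstruction (aGW q d lam) ↔ 1 < d * lam ^ 2) ∧
        (Nonreconstruction (aGW q d lam) ↔ d * lam ^ 2 ≤ 1)) := by
  rintro q (rfl | rfl) lam h0 h1
  · exact main (by norm_num) Q3.cert lam h0 h1
  · exact main (by norm_num) Q4.cert lam h0 h1

end Vale.Agent.Results.P154.Ferro
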