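import Vale.Agent.P154AF.Final
import Vale.Agent.P154AF.REG
import Vale.Agent.P154AF.KBOUND
import Vale.Agent.P154AF.POIPW
import Vale.Agent.P154AF.RunAll
import Vale.Agent.P154.CertB
import Vale.Agent.P154.Cert4
import Vale.Agent.P154.CertP

namespace Vale.Agent.Results.P154.Full

open Vale.Agent.P154 Vale.Agent.P154.AF Filter Topology

private theorem pieces : Pieces where
  finReg := finReg
  finGW := finGW
  big := big
  four := four reg kbound
  poi := poiPW
  cb := ⟨_, _, _, _, by norm_num, FP.CertB.certBig⟩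
  cf := ⟨_, _, _, _, _, _, _, _, by norm_num, FP.Cert4.certFour, fun d lam _ h4 h0 h1 =>
    ⟨142, (run_final d lam h4 h0 h1.le).trans (by norm_num)⟩⟩
  cp := ⟨_, _, _, _, _, FP.CertP.certPW⟩

/-- Complete answer to the question.  For `q = 3` and every `-1/2 ≤ lam ≤ 1`, and for `q = 4` and
every `0 ≤ lam ≤ 1`, on the `d`-ary tree (all integers `d ≥ 2`) and on the Galton-Watson tree with
Poisson(`d`) offspring (all real `d > 0`), reconstruction holds if and only if `d lam^2 > 1`, and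
nonreconstruction holds if and only if `d lam^2 ≤ 1`. -/
theorem result :
    ∀ q : ℕ, ∀ lam : ℝ, (q = 3 ∧ -1/2 ≤ lam ∧ lam ≤ 1) ∨ (q = 4 ∧ 0 ≤ lam ∧ lam ≤ 1) →
      (∀ d : ℕ, 2 ≤ d →
        (Reconstruction (aReg q d lam) ↔ 1 < (d : ℝ) * lam ^ 2) ∧
        (Nonreconstruction (aReg q d lam) ↔ (d : ℝ) * lam ^ 2 ≤ 1)) ∧
      (∀ d : ℝ, 0 < d →
        (Reconstruction (aGW q d lam) ↔ 1 < d * lam ^ 2) ∧
        (Nonreconstruction (aGW q d lam) ↔ d * lam ^ 2 ≤ 1)) :=
  full_of pieces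

end Vale.Agent.Results.P154.Full
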