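import Vale.Agent.P154AF.Final
import Vale.Agent.P154AF.REG
import Vale.Agent.P154AF.KBOUND
import Vale.Agent.P154AF.RunAll
import Vale.Agent.P154.CertB
import Vale.Agent.P154.Cert4

namespace Vale.Agent.Results.P154.Regular

open Vale.Agent.P154 Vale.Agent.P154.AF Filter Topology

private theorem nonrec_four {lam : ℝ} (h0 : -1/2 ≤ lam) (h1 : lam < 0) {d : ℕ}
    (hd : 2 ≤ d) (h4 : d ≤ 4) : Nonreconstruction (aReg 3 d lam) := by
  have hc := FP.Cert4.certFour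
  obtain ⟨M, hM⟩ := hc.rng
  refine finReg _ M hM d lam h0 (by linarith)
    (four reg kbound _ _ _ _ _ _ _ _ (by norm_num) hc d lam hd h4 h0 h1 ?_)
  exact ⟨142, (run_final d lam h4 h0 h1.le).trans (by norm_num)⟩

private theorem nonrec_big {lam : ℝ} (h0 : -17/38 ≤ lam) (h1 : lam < 0) {d : ℕ}
    (hd : 2 ≤ d) (h : (d : ℝ) * lam ^ 2 ≤ 1) : Nonreconstruction (aReg 3 d lam) := by
  have hc := FP.CertB.certBig
  exact finReg _ _ hc.rng d lam (by linarith) (by linarith)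
    (big (-17/38) _ _ _ _ (by norm_num) (by norm_num) (by norm_num) hc d lam hd h0 h1 h)

private theorem nonrec_neg {lam : ℝ} (h0 : -1/2 ≤ lam) (h1 : lam < 0) {d : ℕ}
    (hd : 2 ≤ d) (h : (d : ℝ) * lam ^ 2 ≤ 1) : Nonreconstruction (aReg 3 d lam) := by
  rcases le_or_gt d 4 with h4 | h4
  · exact nonrec_four h0 h1 hd h4
  · refine nonrec_big ?_ h1 hd h
    have h5 : (5 : ℝ) ≤ d := by exact_mod_cast h4
    nlinarith [sq_nonneg lam, mul_le_mul_of_nonneg_right h5 (sq_nonneg lam)]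

private theorem not_both' {a : ℕ → ℝ} (h : Reconstruction a) (h' : Nonreconstruction a) : False := by
  obtain ⟨L, hL, hT⟩ := h
  exact hL.ne' (tendsto_nhds_unique hT h')

private theorem iff3 {lam : ℝ} (h0 : -1/2 ≤ lam) (h1 : lam ≤ 1) {d : ℕ} (hd : 2 ≤ d)
    (hN : (d : ℝ) * lam ^ 2 ≤ 1 → Nonreconstruction (aReg 3 d lam)) :
    (Reconstruction (aReg 3 d lam) ↔ 1 < (d : ℝ) * lam ^ 2) ∧
      (Nonreconstruction (aReg 3 d lam) ↔ (d : ℝ) * lam ^ 2 ≤ 1) := by
  have hl : -1 / (((3 : ℕ) : ℝ) - 1) ≤ lam := by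
    norm_num
    linarith
  refine ⟨⟨fun h => ?_, fun h => KS_reg (by norm_num) hl h1 h⟩, ⟨fun h => ?_, hN⟩⟩
  · by_contra hc
    exact not_both' h (hN (not_lt.mp hc))
  · by_contra hc
    exact not_both' (KS_reg (by norm_num) hl h1 (not_le.mp hc)) h

/-- Three states on the `d`-ary tree: for every integer `d ≥ 2` and every admissible
`-1/2 ≤ lam ≤ 1`, reconstruction holds if and only if `d lam^2 > 1` and nonreconstruction holds
if and only if `d lam^2 ≤ 1`.  For `q = 3, 4` and `0 ≤ lam ≤ 1` the same holds in both tree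
models. -/
theorem result :
    (∀ lam : ℝ, -1/2 ≤ lam → lam ≤ 1 → ∀ d : ℕ, 2 ≤ d →
      (Reconstruction (aReg 3 d lam) ↔ 1 < (d : ℝ) * lam ^ 2) ∧
      (Nonreconstruction (aReg 3 d lam) ↔ (d : ℝ) * lam ^ 2 ≤ 1)) ∧
    (∀ q : ℕ, q = 3 ∨ q = 4 → ∀ lam : ℝ, 0 ≤ lam → lam ≤ 1 →
      (∀ d : ℕ, 2 ≤ d →
        (Reconstruction (aReg q d lam) ↔ 1 < (d : ℝ) * lam ^ 2) ∧
        (Nonreconstruction (aReg q d lam) ↔ (d : ℝ) * lam ^ 2 ≤ 1)) ∧
      (∀ d : ℝ, 0 < d →
        (Reconstruction (aGW q d lam) ↔ 1 < d * lam ^ 2) ∧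
        (Nonreconstruction (aGW q d lam) ↔ d * lam ^ 2 ≤ 1))) := by
  refine ⟨fun lam h0 h1 d hd => iff3 h0 h1 hd fun h => ?_, ?_⟩
  · rcases lt_or_ge lam 0 with hl | hl
    · exact nonrec_neg h0 hl hd h
    · exact nonrec_reg (by norm_num) Q3.cert hl h1 hd h
  · rintro q (rfl | rfl) lam h0 h1
    · refine both (by norm_num) ?_ h1
        (fun d hd h => nonrec_reg (by norm_num) Q3.cert h0 h1 hd h)
        (fun d hd h => nonrec_gw (by norm_num) Q3.cert h0 h1 hd h)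
      norm_num
      linarith
    · refine both (by norm_num) ?_ h1
        (fun d hd h => nonrec_reg (by norm_num) Q4.cert h0 h1 hd h)
        (fun d hd h => nonrec_gw (by norm_num) Q4.cert h0 h1 hd h)
      norm_num
      linarith

end Vale.Agent.Results.P154.Regular
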