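import Vale.Agent.P154AF.Final
import Vale.Agent.P154AF.CTR5
import Vale.Agent.P154.CertB

namespace Vale.Agent.Results.P154.RegularFive

open Vale.Agent.P154 Vale.Agent.P154.AF Filter Topology

private theorem nonrec_neg {lam : ℝ} (h0 : -17/38 ≤ lam) (h1 : lam < 0) {d : ℕ}
    (hd : 2 ≤ d) (h : (d : ℝ) * lam ^ 2 ≤ 1) : Nonreconstruction (aReg 3 d lam) := by
  have hc := FP.CertB.certBig
  exact finReg _ _ hc.rng d lam (by linarith) (by linarith)
    (big (-17/38) _ _ _ _ (by norm_num) (by norm_num) (by norm_num) hc d lam hd h0 h1 h)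

private theorem not_both' {a : ℕ → ℝ} (h : Reconstruction a) (h' : Nonreconstruction a) : False := by
  obtain ⟨L, hL, hT⟩ := h
  exact hL.ne' (tendsto_nhds_unique hT h')

private theorem iff3 {lam : ℝ} (h0 : -1/2 ≤ lam) (h1 : lam ≤ 1) {d : ℕ} (hd : 2 ≤ d)
    (hN : (d : ℝ) * lam ^ 2 ≤ 1 → Nonreconstruction (aReg 3 d lam)) :
    (Reconstruction (aReg 3 d lam) ↔ 1 < (d : ℝ) * lam ^ 2) ∧
      (Nonreconstruction (aReg 3 d lam) ↔ (d : ℝ) * lam ^ 2 ≤ 1) := by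
  have hl : -1 / (((3 : ℕ) : ℝ) - 1) ≤ lam := by
    norm_num
    linarith
  refine ⟨⟨fun h => ?_, fun h => KS_reg (by norm_num) hl h1 h⟩, ⟨fun h => ?_, hN⟩⟩
  · by_contra hc
    exact not_both' h (hN (not_lt.mp hc))
  · by_contra hc
    exact not_both' (KS_reg (by norm_num) hl h1 (not_le.mp hc)) h

/-- Three states, `d`-ary trees.  For every integer `d ≥ 5` and every admissible
`-1/2 ≤ lam ≤ 1`, and also for every integer `d ≥ 2` and every `-17/38 ≤ lam ≤ 1`,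
reconstruction holds if and only if `d lam^2 > 1` and nonreconstruction holds if and only if
`d lam^2 ≤ 1`. -/
theorem result :
    (∀ d : ℕ, 5 ≤ d → ∀ lam : ℝ, -1/2 ≤ lam → lam ≤ 1 →
      (Reconstruction (aReg 3 d lam) ↔ 1 < (d : ℝ) * lam ^ 2) ∧
      (Nonreconstruction (aReg 3 d lam) ↔ (d : ℝ) * lam ^ 2 ≤ 1)) ∧
    (∀ d : ℕ, 2 ≤ d → ∀ lam : ℝ, -17/38 ≤ lam → lam ≤ 1 →
      (Reconstruction (aReg 3 d lam) ↔ 1 < (d : ℝ) * lam ^ 2) ∧
      (Nonreconstruction (aReg 3 d lam) ↔ (d : ℝ) * lam ^ 2 ≤ 1)) := by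
  have key : ∀ d : ℕ, 2 ≤ d → ∀ lam : ℝ, -17/38 ≤ lam → lam ≤ 1 → (d : ℝ) * lam ^ 2 ≤ 1 →
      Nonreconstruction (aReg 3 d lam) := by
    intro d hd lam h0 h1 h
    rcases lt_or_ge lam 0 with hl | hl
    · exact nonrec_neg h0 hl hd h
    · exact nonrec_reg (by norm_num) Q3.cert hl h1 hd h
  refine ⟨fun d hd lam h0 h1 => iff3 h0 h1 (by omega) fun h => ?_,
    fun d hd lam h0 h1 => iff3 (by linarith) h1 hd (key d hd lam h0 h1)⟩
  refine key d (by omega) lam ?_ h1 h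
  have h5 : (5 : ℝ) ≤ d := by exact_mod_cast hd
  nlinarith [sq_nonneg lam, mul_le_mul_of_nonneg_right h5 (sq_nonneg lam)]

end Vale.Agent.Results.P154.RegularFive
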